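import Vale.Agent.P183.L7.Check

namespace Vale.Agent.P183.L7

theorem slice00 : chkSlice 0 = true := by decide +kernel

theorem slice01 : chkSlice 1 = true := by decide +kernel

theorem slice02 : chkSlice 2 = true := by decide +kernel

theorem slice03 : chkSlice 3 = true := by decide +kernel

end Vale.Agent.P183.L7
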