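import Vale.Agent.P183.L7.C.S00

namespace Vale.Agent.P183.L7

theorem slice04 : chkSlice 4 = true := by decide +kernel

theorem slice05 : chkSlice 5 = true := by decide +kernel

theorem slice06 : chkSlice 6 = true := by decide +kernel

theorem slice07 : chkSlice 7 = true := by decide +kernel

end Vale.Agent.P183.L7
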