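import Vale.Agent.P183.L7.C.S01

namespace Vale.Agent.P183.L7

theorem slice08 : chkSlice 8 = true := by decide +kernel

theorem slice09 : chkSlice 9 = true := by decide +kernel

theorem slice10 : chkSlice 10 = true := by decide +kernel

theorem slice11 : chkSlice 11 = true := by decide +kernel

end Vale.Agent.P183.L7
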