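import Vale.Agent.P183.L7.C.S02

namespace Vale.Agent.P183.L7

theorem slice12 : chkSlice 12 = true := by decide +kernel

theorem slice13 : chkSlice 13 = true := by decide +kernel

theorem slice14 : chkSlice 14 = true := by decide +kernel

theorem slice15 : chkSlice 15 = true := by decide +kernel

end Vale.Agent.P183.L7
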