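import Vale.Agent.P183.L7.Check

namespace Vale.Agent.P183.L7

theorem slice16 : chkSlice 16 = true := by decide +kernel

theorem slice17 : chkSlice 17 = true := by decide +kernel

theorem slice18 : chkSlice 18 = true := by decide +kernel

theorem slice19 : chkSlice 19 = true := by decide +kernel

end Vale.Agent.P183.L7
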