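import Vale.Agent.P183.L7.C.S04

namespace Vale.Agent.P183.L7

theorem slice20 : chkSlice 20 = true := by decide +kernel

theorem slice21 : chkSlice 21 = true := by decide +kernel

theorem slice22 : chkSlice 22 = true := by decide +kernel

theorem slice23 : chkSlice 23 = true := by decide +kernel

end Vale.Agent.P183.L7
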