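import Vale.Agent.P183.L7.C.S05

namespace Vale.Agent.P183.L7

theorem slice24 : chkSlice 24 = true := by decide +kernel

theorem slice25 : chkSlice 25 = true := by decide +kernel

theorem slice26 : chkSlice 26 = true := by decide +kernel

theorem slice27 : chkSlice 27 = true := by decide +kernel

end Vale.Agent.P183.L7
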