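import Vale.Agent.P183.L7.C.S06

namespace Vale.Agent.P183.L7

theorem slice28 : chkSlice 28 = true := by decide +kernel

theorem slice29 : chkSlice 29 = true := by decide +kernel

theorem slice30 : chkSlice 30 = true := by decide +kernel

theorem slice31 : chkSlice 31 = true := by decide +kernel

end Vale.Agent.P183.L7
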