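import Vale.Agent.P183.L7.Check

namespace Vale.Agent.P183.L7

theorem slice32 : chkSlice 32 = true := by decide +kernel

theorem slice33 : chkSlice 33 = true := by decide +kernel

theorem slice34 : chkSlice 34 = true := by decide +kernel

theorem slice35 : chkSlice 35 = true := by decide +kernel

end Vale.Agent.P183.L7
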