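import Vale.Agent.P183.L7.C.S08

namespace Vale.Agent.P183.L7

theorem slice36 : chkSlice 36 = true := by decide +kernel

theorem slice37 : chkSlice 37 = true := by decide +kernel

theorem slice38 : chkSlice 38 = true := by decide +kernel

theorem slice39 : chkSlice 39 = true := by decide +kernel

end Vale.Agent.P183.L7
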