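import Vale.Agent.P183.L7.C.S09

namespace Vale.Agent.P183.L7

theorem slice40 : chkSlice 40 = true := by decide +kernel

theorem slice41 : chkSlice 41 = true := by decide +kernel

theorem slice42 : chkSlice 42 = true := by decide +kernel

theorem slice43 : chkSlice 43 = true := by decide +kernel

end Vale.Agent.P183.L7
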