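import Vale.Agent.P183.L7.C.S10

namespace Vale.Agent.P183.L7

theorem slice44 : chkSlice 44 = true := by decide +kernel

theorem slice45 : chkSlice 45 = true := by decide +kernel

theorem slice46 : chkSlice 46 = true := by decide +kernel

theorem slice47 : chkSlice 47 = true := by decide +kernel

end Vale.Agent.P183.L7
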