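import Vale.Agent.P183.L7.Check

namespace Vale.Agent.P183.L7

theorem slice48 : chkSlice 48 = true := by decide +kernel

theorem slice49 : chkSlice 49 = true := by decide +kernel

theorem slice50 : chkSlice 50 = true := by decide +kernel

theorem slice51 : chkSlice 51 = true := by decide +kernel

end Vale.Agent.P183.L7
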