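import Vale.Agent.P183.L7.C.S12

namespace Vale.Agent.P183.L7

theorem slice52 : chkSlice 52 = true := by decide +kernel

theorem slice53 : chkSlice 53 = true := by decide +kernel

theorem slice54 : chkSlice 54 = true := by decide +kernel

theorem slice55 : chkSlice 55 = true := by decide +kernel

end Vale.Agent.P183.L7
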