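import Vale.Agent.P183.L7.C.S13

namespace Vale.Agent.P183.L7

theorem slice56 : chkSlice 56 = true := by decide +kernel

theorem slice57 : chkSlice 57 = true := by decide +kernel

theorem slice58 : chkSlice 58 = true := by decide +kernel

theorem slice59 : chkSlice 59 = true := by decide +kernel

end Vale.Agent.P183.L7
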