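import Vale.Agent.P183.L7.C.S14

namespace Vale.Agent.P183.L7

theorem slice60 : chkSlice 60 = true := by decide +kernel

theorem slice61 : chkSlice 61 = true := by decide +kernel

theorem slice62 : chkSlice 62 = true := by decide +kernel

theorem slice63 : chkSlice 63 = true := by decide +kernel

end Vale.Agent.P183.L7
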