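import Vale.Agent.P183.L7.Check

namespace Vale.Agent.P183.L7

theorem slice64 : chkSlice 64 = true := by decide +kernel

theorem slice65 : chkSlice 65 = true := by decide +kernel

theorem slice66 : chkSlice 66 = true := by decide +kernel

theorem slice67 : chkSlice 67 = true := by decide +kernel

end Vale.Agent.P183.L7
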