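import Vale.Agent.P183.L7.C.S16

namespace Vale.Agent.P183.L7

theorem slice68 : chkSlice 68 = true := by decide +kernel

theorem slice69 : chkSlice 69 = true := by decide +kernel

theorem slice70 : chkSlice 70 = true := by decide +kernel

theorem slice71 : chkSlice 71 = true := by decide +kernel

end Vale.Agent.P183.L7
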