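import Vale.Agent.P183.L7.C.S17

namespace Vale.Agent.P183.L7

theorem slice72 : chkSlice 72 = true := by decide +kernel

theorem slice73 : chkSlice 73 = true := by decide +kernel

theorem slice74 : chkSlice 74 = true := by decide +kernel

theorem slice75 : chkSlice 75 = true := by decide +kernel

end Vale.Agent.P183.L7
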