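import Vale.Agent.P183.L7.C.S18

namespace Vale.Agent.P183.L7

theorem slice76 : chkSlice 76 = true := by decide +kernel

theorem slice77 : chkSlice 77 = true := by decide +kernel

theorem slice78 : chkSlice 78 = true := by decide +kernel

theorem slice79 : chkSlice 79 = true := by decide +kernel

end Vale.Agent.P183.L7
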