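import Vale.Agent.P183.L7.Check

namespace Vale.Agent.P183.L7

theorem slice80 : chkSlice 80 = true := by decide +kernel

theorem slice81 : chkSlice 81 = true := by decide +kernel

theorem slice82 : chkSlice 82 = true := by decide +kernel

theorem slice83 : chkSlice 83 = true := by decide +kernel

end Vale.Agent.P183.L7
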