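import Vale.Agent.P183.L7.C.S20

namespace Vale.Agent.P183.L7

theorem slice84 : chkSlice 84 = true := by decide +kernel

theorem slice85 : chkSlice 85 = true := by decide +kernel

theorem slice86 : chkSlice 86 = true := by decide +kernel

theorem slice87 : chkSlice 87 = true := by decide +kernel

end Vale.Agent.P183.L7
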