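import Vale.Agent.P183.L7.C.S21

namespace Vale.Agent.P183.L7

theorem slice88 : chkSlice 88 = true := by decide +kernel

theorem slice89 : chkSlice 89 = true := by decide +kernel

theorem slice90 : chkSlice 90 = true := by decide +kernel

theorem slice91 : chkSlice 91 = true := by decide +kernel

end Vale.Agent.P183.L7
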