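import Vale.Agent.P183.L7.C.S22

namespace Vale.Agent.P183.L7

theorem slice92 : chkSlice 92 = true := by decide +kernel

theorem slice93 : chkSlice 93 = true := by decide +kernel

theorem slice94 : chkSlice 94 = true := by decide +kernel

theorem slice95 : chkSlice 95 = true := by decide +kernel

end Vale.Agent.P183.L7
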